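import Mathlib

namespace Vale.Agent.P333

variable {α : Type*} [DecidableEq α]

def IsCommonSuperstring (S : Finset (List α)) (T : List α) : Prop :=
  ∀ s ∈ S, s <:+: T

noncomputable def OPT (S : Finset (List α)) : ℕ :=
  sInf {n | ∃ T : List α, IsCommonSuperstring S T ∧ T.length = n}

def overlap (s t : List α) : ℕ :=
  Nat.findGreatest (fun k => s.drop (s.length - k) = t.take k) (min s.length t.length)

def merge (s t : List α) : List α :=
  s ++ t.drop (overlap s t)

def discard (S : Finset (List α)) : Finset (List α) :=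
  S.filter (fun s => ∀ t ∈ S, s <:+: t → t = s)

def GreedyStep (F F' : Finset (List α)) : Prop :=
  ∃ s ∈ F, ∃ t ∈ F, s ≠ t ∧
    (∀ s' ∈ F, ∀ t' ∈ F, s' ≠ t' → overlap s' t' ≤ overlap s t) ∧
    F' = insert (merge s t) ((F.erase s).erase t)

def IsGreedyOutput (S : Finset (List α)) (T : List α) : Prop :=
  Relation.ReflTransGen GreedyStep (discard S) {T}

end Vale.Agent.P333
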