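import Vale.Agent.P333.Greedy

namespace Vale.Agent.P333

variable {α : Type*} [DecidableEq α]

lemma exists_run (n : ℕ) : ∀ F : Finset (List α), F.card = n → F.Nonempty →
    ∃ T, Relation.ReflTransGen GreedyStep F {T} := by
  induction n using Nat.strong_induction_on with
  | _ n ih =>
    intro F hn hne
    rcases Nat.lt_or_ge F.card 2 with h | h
    · have h1 : F.card = 1 := by
        have := Finset.card_pos.mpr hne
        omega
      obtain ⟨T, rfl⟩ := Finset.card_eq_one.mp h1
      exact ⟨T, Relation.ReflTransGen.refl⟩
    · have hod : F.offDiag.Nonempty := by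
        rw [← Finset.card_pos, Finset.offDiag_card]
        have : F.card < F.card * F.card := by nlinarith
        omega
      obtain ⟨⟨s, t⟩, hst, hmax⟩ :=
        Finset.exists_max_image F.offDiag (fun p : List α × List α => overlap p.1 p.2) hod
      rw [Finset.mem_offDiag] at hst
      obtain ⟨hs, ht, hne'⟩ := hst
      set F' := insert (merge s t) ((F.erase s).erase t) with hF'
      have hstep : GreedyStep F F' := by
        refine ⟨s, hs, t, ht, hne', ?_, rfl⟩
        intro s' hs' t' ht' hne''
        exact hmax (s', t') (Finset.mem_offDiag.mpr ⟨hs', ht', hne''⟩)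
      have hcard : F'.card < n := by
        have h1 : ((F.erase s).erase t).card = F.card - 2 := by
          rw [Finset.card_erase_of_mem (Finset.mem_erase.mpr ⟨hne'.symm, ht⟩),
            Finset.card_erase_of_mem hs]
          omega
        have h2 : F'.card ≤ ((F.erase s).erase t).card + 1 :=
          Finset.card_insert_le (merge s t) ((F.erase s).erase t)
        omega
      obtain ⟨T, hT⟩ := ih F'.card hcard F' rfl (Finset.insert_nonempty _ _)
      exact ⟨T, Relation.ReflTransGen.head hstep hT⟩

lemma exists_greedyOutput {S : Finset (List α)} (hS : S.Nonempty) : ∃ T, IsGreedyOutput S T := by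
  obtain ⟨s, hs⟩ := hS
  obtain ⟨t, ht, -⟩ := exists_discard_infix S hs
  exact exists_run _ (discard S) rfl ⟨t, ht⟩

end Vale.Agent.P333
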