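import Vale.Agent.P333.Greedy

namespace Vale.Agent.P333

variable {α : Type*} [DecidableEq α]

lemma four_core {F : Finset (List α)} (hff : FactorFree F) (hcard : F.card ≤ 4) {T U : List α}
    (h : Relation.ReflTransGen GreedyStep F {T}) (hU : IsCommonSuperstring F U) :
    T.length ≤ 2 * U.length := by
  rcases Relation.ReflTransGen.cases_head h with h0 | ⟨F2, hstep, hrest⟩
  · have : T <:+: U := hU T (by rw [h0]; simp)
    have := this.length_le
    omega
  · obtain ⟨a, b, G, hd⟩ := hstep.data
    have hff2 := hd.factorFree hff
    have hl2 := hd.totalLen_F' hff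
    have hlF := hd.totalLen_F
    have hab : a.length + b.length ≤ U.length + overlap a b := by
      apply pair_bound (hU a hd.ha) (hU b hd.hb)
      · intro h1; exact hd.hab (hff a hd.ha b hd.hb h1)
      · intro h1; exact hd.hab (hff b hd.hb a hd.ha h1).symm
      · exact le_rfl
      · exact hd.hmax b hd.hb a hd.ha hd.hab.symm
    have hcG : G.card + 2 = F.card := by
      rw [hd.hF, Finset.card_insert_of_notMem hd.haG, Finset.card_insert_of_notMem hd.hbG]
    have hGle : G.card ≤ 2 := by omega
    rcases Relation.ReflTransGen.cases_head hrest with h0 | ⟨F3, hstep2, hrest2⟩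
    · have h1 := (run_facts hrest hff2).1
      have hG0 : G = ∅ := by
        by_contra hne
        obtain ⟨c, hc⟩ := Finset.nonempty_iff_ne_empty.mpr hne
        have hcT : c ∈ ({T} : Finset (List α)) := by rw [← h0, hd.hF']; simp [hc]
        have hMT : merge a b ∈ ({T} : Finset (List α)) := by rw [← h0, hd.hF']; simp
        rw [Finset.mem_singleton] at hcT hMT
        exact hd.merge_notMem hff (by rw [hMT, ← hcT]; exact hc)
      have : totalLen G = 0 := by rw [hG0]; simp [totalLen]
      omega
    · obtain ⟨a2, b2, G2, hd2⟩ := hstep2.data
      have hff3 := hd2.factorFree hff2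
      have hl3 := hd2.totalLen_F' hff2
      have h1 := (run_facts hrest2 hff3).1
      have hGbound : totalLen G ≤ U.length + overlap a2 b2 := by
        interval_cases hc : G.card
        · rw [Finset.card_eq_zero.mp hc]; simp [totalLen]
        · obtain ⟨c, rfl⟩ := Finset.card_eq_one.mp hc
          have : c <:+: U := hU c (hd.mem_of_mem_G (by simp))
          have := this.length_le
          simp only [totalLen, Finset.sum_singleton]
          omega
        · obtain ⟨c, d, hcd, rfl⟩ := Finset.card_eq_two.mp hc
          have hcG : c ∈ ({c, d} : Finset (List α)) := by simp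
          have hdG : d ∈ ({c, d} : Finset (List α)) := by simp
          have hcF := hd.mem_of_mem_G hcG
          have hdF := hd.mem_of_mem_G hdG
          have hcF2 : c ∈ F2 := by rw [hd.hF']; simp
          have hdF2 : d ∈ F2 := by rw [hd.hF']; simp
          have := pair_bound (hU c hcF) (hU d hdF)
            (fun h1 => hcd (hff c hcF d hdF h1)) (fun h1 => hcd (hff d hdF c hcF h1).symm)
            (hd2.hmax c hcF2 d hdF2 hcd) (hd2.hmax d hdF2 c hcF2 hcd.symm)
          simp only [totalLen, Finset.sum_pair hcd]
          exact this
      omega

end Vale.Agent.P333
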