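import Vale.Agent.P333.Occ

namespace Vale.Agent.P333

variable {α : Type*} [DecidableEq α]

def FactorFree (F : Finset (List α)) : Prop := ∀ s ∈ F, ∀ t ∈ F, s <:+: t → s = t

def totalLen (F : Finset (List α)) : ℕ := ∑ s ∈ F, s.length

lemma factorFree_discard (S : Finset (List α)) : FactorFree (discard S) := by
  intro s hs t ht hst
  simp only [discard, Finset.mem_filter] at hs ht
  exact (hs.2 t ht.1 hst).symm

lemma exists_discard_infix (S : Finset (List α)) {s : List α} (hs : s ∈ S) :
    ∃ t ∈ discard S, s <:+: t := by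
  have hne : (S.filter (fun t => s <:+: t)).Nonempty := ⟨s, by simp [hs]⟩
  obtain ⟨t, ht, hmax⟩ := Finset.exists_max_image _ (fun t : List α => t.length) hne
  simp only [Finset.mem_filter] at ht hmax
  refine ⟨t, ?_, ht.2⟩
  simp only [discard, Finset.mem_filter]
  refine ⟨ht.1, fun u hu htu => ?_⟩
  have h1 := hmax u ⟨hu, ht.2.trans htu⟩
  exact (htu.eq_of_length (le_antisymm htu.length_le h1)).symm

lemma superstring_of_discard {S : Finset (List α)} {T : List α}
    (h : IsCommonSuperstring (discard S) T) : IsCommonSuperstring S T := by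
  intro s hs
  obtain ⟨t, ht, hst⟩ := exists_discard_infix S hs
  exact hst.trans (h t ht)

lemma superstring_discard_of {S : Finset (List α)} {T : List α}
    (h : IsCommonSuperstring S T) : IsCommonSuperstring (discard S) T := by
  intro s hs
  exact h s (Finset.mem_filter.mp hs).1

structure StepData (F F' : Finset (List α)) (a b : List α) (G : Finset (List α)) : Prop where
  ha : a ∈ F
  hb : b ∈ F
  hab : a ≠ b
  hmax : ∀ s' ∈ F, ∀ t' ∈ F, s' ≠ t' → overlap s' t' ≤ overlap a b
  hG : G = (F.erase a).erase b
  hF : F = insert a (insert b G)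
  haG : a ∉ insert b G
  hbG : b ∉ G
  hF' : F' = insert (merge a b) G

lemma GreedyStep.data {F F' : Finset (List α)} (h : GreedyStep F F') :
    ∃ a b G, StepData F F' a b G := by
  obtain ⟨a, ha, b, hb, hab, hmax, hF'⟩ := h
  refine ⟨a, b, (F.erase a).erase b, ha, hb, hab, hmax, rfl, ?_, ?_, ?_, hF'⟩
  · rw [Finset.insert_erase (Finset.mem_erase.mpr ⟨hab.symm, hb⟩), Finset.insert_erase ha]
  · rw [Finset.insert_erase (Finset.mem_erase.mpr ⟨hab.symm, hb⟩)]
    exact Finset.notMem_erase _ _
  · exact Finset.notMem_erase _ _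

namespace StepData

variable {F F' G : Finset (List α)} {a b : List α}

lemma mem_of_mem_G (h : StepData F F' a b G) {c : List α} (hc : c ∈ G) : c ∈ F := by
  rw [h.hF]; simp [hc]

lemma ne_a (h : StepData F F' a b G) {c : List α} (hc : c ∈ G) : c ≠ a := by
  rintro rfl
  exact h.haG (by simp [hc])

lemma ne_b (h : StepData F F' a b G) {c : List α} (hc : c ∈ G) : c ≠ b := by
  rintro rfl
  exact h.hbG hc

lemma merge_notMem (h : StepData F F' a b G) (hff : FactorFree F) : merge a b ∉ G := by
  intro hM
  have h1 := hff a h.ha _ (h.mem_of_mem_G hM) (prefix_merge a b).isInfix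
  exact h.ne_a hM h1.symm

lemma factorFree (h : StepData F F' a b G) (hff : FactorFree F) : FactorFree F' := by
  have key1 : ∀ c ∈ G, ¬ merge a b <:+: c := by
    intro c hc hMc
    have h1 := hff a h.ha c (h.mem_of_mem_G hc) ((prefix_merge a b).isInfix.trans hMc)
    exact h.ne_a hc h1.symm
  have key2 : ∀ c ∈ G, ¬ c <:+: merge a b := by
    intro c hc
    have hcF := h.mem_of_mem_G hc
    apply not_infix_merge
    · intro h1; exact h.ne_a hc (hff c hcF a h.ha h1)
    · intro h1; exact h.ne_b hc (hff c hcF b h.hb h1)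
    · intro h1; exact h.ne_a hc (hff a h.ha c hcF h1).symm
    · intro h1; exact h.ne_b hc (hff b h.hb c hcF h1).symm
    · exact h.hmax a h.ha c hcF (h.ne_a hc).symm
  intro s hs t ht hst
  rw [h.hF'] at hs ht
  rcases Finset.mem_insert.mp hs with rfl | hs
  · rcases Finset.mem_insert.mp ht with rfl | ht
    · rfl
    · exact absurd hst (key1 t ht)
  · rcases Finset.mem_insert.mp ht with rfl | ht
    · exact absurd hst (key2 s hs)
    · exact hff s (h.mem_of_mem_G hs) t (h.mem_of_mem_G ht) hst

lemma totalLen_F (h : StepData F F' a b G) : totalLen F = a.length + b.length + totalLen G := by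
  unfold totalLen
  rw [h.hF, Finset.sum_insert h.haG, Finset.sum_insert h.hbG]
  ring

lemma totalLen_F' (h : StepData F F' a b G) (hff : FactorFree F) :
    totalLen F' + overlap a b = totalLen F := by
  rw [h.totalLen_F]
  unfold totalLen
  rw [h.hF', Finset.sum_insert (h.merge_notMem hff)]
  have := merge_length a b
  omega

lemma superstring (h : StepData F F' a b G) {T : List α} (hT : IsCommonSuperstring F' T) :
    IsCommonSuperstring F T := by
  have hM : merge a b <:+: T := hT _ (by rw [h.hF']; simp)
  intro s hs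
  rw [h.hF] at hs
  rcases Finset.mem_insert.mp hs with rfl | hs
  · exact (prefix_merge _ b).isInfix.trans hM
  · rcases Finset.mem_insert.mp hs with rfl | hs
    · exact (suffix_merge a _).isInfix.trans hM
    · exact hT s (by rw [h.hF']; simp [hs])

end StepData

lemma run_facts {F : Finset (List α)} {T : List α}
    (h : Relation.ReflTransGen GreedyStep F {T}) (hff : FactorFree F) :
    T.length ≤ totalLen F ∧ IsCommonSuperstring F T := by
  induction h using Relation.ReflTransGen.head_induction_on with
  | refl =>
    refine ⟨by simp [totalLen], ?_⟩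
    intro s hs
    rw [Finset.mem_singleton.mp hs]
  | head hstep _ ih =>
    obtain ⟨a, b, G, hd⟩ := hstep.data
    obtain ⟨h1, h2⟩ := ih (hd.factorFree hff)
    have := hd.totalLen_F' hff
    exact ⟨by omega, hd.superstring h2⟩

lemma pair_bound {x y T : List α} (hx : x <:+: T) (hy : y <:+: T) (hxy : ¬ x <:+: y)
    (hyx : ¬ y <:+: x) {k : ℕ} (h1 : overlap x y ≤ k) (h2 : overlap y x ≤ k) :
    x.length + y.length ≤ T.length + k := by
  obtain ⟨p, hp⟩ := exists_occ hx
  obtain ⟨q, hq⟩ := exists_occ hy
  rcases lt_trichotomy p q with h | h | h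
  · have := occ_lt hp hq h hyx
    have := hq.1
    omega
  · subst h
    rcases occ_same hp hq with h3 | h3
    · exact absurd h3 hxy
    · exact absurd h3 hyx
  · have := occ_lt hq hp h hxy
    have := hp.1
    omega

end Vale.Agent.P333
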