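import Vale.Agent.P333.Overlap

namespace Vale.Agent.P333

variable {α : Type*} [DecidableEq α]

def Occ (s T : List α) (p : ℕ) : Prop := p + s.length ≤ T.length ∧ s <+: T.drop p

omit [DecidableEq α] in
lemma exists_occ {s T : List α} (h : s <:+: T) : ∃ p, Occ s T p := by
  obtain ⟨t, hst, htT⟩ := List.infix_iff_prefix_suffix.mp h
  refine ⟨T.length - t.length, ?_, ?_⟩
  · have := hst.length_le
    have := htT.length_le
    omega
  · rw [← List.suffix_iff_eq_drop.mp htT]; exact hst

omit [DecidableEq α] in
lemma Occ.isInfix {s T : List α} {p : ℕ} (h : Occ s T p) : s <:+: T :=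
  h.2.isInfix.trans (List.drop_suffix _ _).isInfix

omit [DecidableEq α] in
lemma occ_same {s t T : List α} {p : ℕ} (hs : Occ s T p) (ht : Occ t T p) :
    s <:+: t ∨ t <:+: s := by
  rcases le_total s.length t.length with h | h
  · exact Or.inl (List.prefix_of_prefix_length_le hs.2 ht.2 h).isInfix
  · exact Or.inr (List.prefix_of_prefix_length_le ht.2 hs.2 h).isInfix

lemma occ_lt {s t T : List α} {p q : ℕ} (hs : Occ s T p) (ht : Occ t T q) (hpq : p < q)
    (hts : ¬ t <:+: s) : p + s.length ≤ q + overlap s t := by
  by_cases hq : p + s.length ≤ q
  · omega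
  · have e1 : T.drop q = (T.drop p).drop (q - p) := by
      rw [List.drop_drop]; congr 1; omega
    have h1 : s.drop (q - p) <+: T.drop q := by
      rw [e1]; exact hs.2.drop _
    rcases le_total (s.drop (q - p)).length t.length with h | h
    · have h2 : s.drop (q - p) <+: t := List.prefix_of_prefix_length_le h1 ht.2 h
      have : IsOv s t (s.drop (q - p)).length := ⟨_, List.drop_suffix _ _, h2, rfl⟩
      have := this.le_overlap
      simp only [List.length_drop] at this
      omega
    · exfalso
      have h2 : t <+: s.drop (q - p) := List.prefix_of_prefix_length_le ht.2 h1 h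
      exact hts (h2.isInfix.trans (List.drop_suffix _ _).isInfix)

lemma merge_length (s t : List α) : (merge s t).length + overlap s t = s.length + t.length := by
  have := overlap_le_right s t
  simp only [merge, List.length_append, List.length_drop]
  omega

lemma prefix_merge (s t : List α) : s <+: merge s t := List.prefix_append _ _

lemma suffix_merge (s t : List α) : t <:+ merge s t := by
  have h := (isOv_iff.mp (overlap_isOv s t)).2
  refine ⟨s.take (s.length - overlap s t), ?_⟩
  unfold merge
  calc s.take (s.length - overlap s t) ++ t
      = s.take (s.length - overlap s t) ++ (t.take (overlap s t) ++ t.drop (overlap s t)) := by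
        rw [List.take_append_drop]
    _ = (s.take (s.length - overlap s t) ++ s.drop (s.length - overlap s t))
          ++ t.drop (overlap s t) := by
        rw [h, List.append_assoc]
    _ = s ++ t.drop (overlap s t) := by rw [List.take_append_drop]

lemma overlap_of_suffix {b M c : List α} (hb : b <:+ M) (hbc : ¬ b <:+: c) :
    overlap M c = overlap b c := by
  apply le_antisymm
  · obtain ⟨v, hvM, hvc, hvl⟩ := overlap_isOv M c
    rcases le_total v.length b.length with h | h
    · have : IsOv b c v.length := ⟨v, List.suffix_of_suffix_length_le hvM hb h, hvc, rfl⟩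
      have := this.le_overlap
      omega
    · exfalso
      exact hbc ((List.suffix_of_suffix_length_le hb hvM h).isInfix.trans hvc.isInfix)
  · obtain ⟨v, hvb, hvc, hvl⟩ := overlap_isOv b c
    have : IsOv M c v.length := ⟨v, hvb.trans hb, hvc, rfl⟩
    have := this.le_overlap
    omega

lemma overlap_of_prefix {a M c : List α} (ha : a <+: M) (hac : ¬ a <:+: c) :
    overlap c M = overlap c a := by
  apply le_antisymm
  · obtain ⟨v, hvc, hvM, hvl⟩ := overlap_isOv c M
    rcases le_total v.length a.length with h | h
    · have : IsOv c a v.length := ⟨v, hvc, List.prefix_of_prefix_length_le hvM ha h, rfl⟩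
      have := this.le_overlap
      omega
    · exfalso
      exact hac ((List.prefix_of_prefix_length_le ha hvM h).isInfix.trans hvc.isInfix)
  · obtain ⟨v, hvc, hva, hvl⟩ := overlap_isOv c a
    have : IsOv c M v.length := ⟨v, hvc, hva.trans ha, rfl⟩
    have := this.le_overlap
    omega

lemma occ_left_merge (s t : List α) : Occ s (merge s t) 0 := by
  refine ⟨?_, ?_⟩
  · have := (prefix_merge s t).length_le; omega
  · simpa using prefix_merge s t

lemma occ_right_merge (s t : List α) : Occ t (merge s t) (s.length - overlap s t) := by
  have h1 := merge_length s t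
  have h2 := overlap_le_left s t
  refine ⟨by omega, ?_⟩
  have h3 := List.suffix_iff_eq_drop.mp (suffix_merge s t)
  have e : (merge s t).length - t.length = s.length - overlap s t := by omega
  rw [e] at h3
  rw [← h3]

lemma not_infix_merge {a b c : List α} (hca : ¬ c <:+: a) (hcb : ¬ c <:+: b) (hac : ¬ a <:+: c)
    (hbc : ¬ b <:+: c) (hmax : overlap a c ≤ overlap a b) : ¬ c <:+: merge a b := by
  intro h
  obtain ⟨q, hq⟩ := exists_occ h
  have ha := occ_left_merge a b
  have hb := occ_right_merge a b
  have hk := overlap_le_left a b
  have hl := merge_length a b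
  rcases Nat.eq_zero_or_pos q with h0 | h0
  · subst h0
    rcases occ_same ha hq with h1 | h1
    · exact hac h1
    · exact hca h1
  · have h1 := occ_lt ha hq h0 hca
    rcases Nat.lt_or_ge (a.length - overlap a b) q with h2 | h2
    · have h3 := occ_lt hb hq h2 hcb
      have h4 := overlap_lt_right hcb
      have h5 := hq.1
      omega
    · have e : q = a.length - overlap a b := by omega
      subst e
      rcases occ_same hb hq with h3 | h3
      · exact hbc h3
      · exact hcb h3

end Vale.Agent.P333
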