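import Vale.Agent.P333.Defs

namespace Vale.Agent.P333

variable {α : Type*} [DecidableEq α]

def IsOv (s t : List α) (k : ℕ) : Prop := ∃ v : List α, v <:+ s ∧ v <+: t ∧ v.length = k

omit [DecidableEq α] in
lemma isOv_iff {s t : List α} {k : ℕ} :
    IsOv s t k ↔ k ≤ min s.length t.length ∧ s.drop (s.length - k) = t.take k := by
  constructor
  · rintro ⟨v, hs, ht, rfl⟩
    refine ⟨le_min hs.length_le ht.length_le, ?_⟩
    rw [← List.suffix_iff_eq_drop.mp hs, ← List.prefix_iff_eq_take.mp ht]
  · rintro ⟨hk, h⟩
    refine ⟨t.take k, ?_, List.take_prefix _ _, ?_⟩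
    · rw [← h]; exact List.drop_suffix _ _
    · simp only [List.length_take]; omega

lemma overlap_isOv (s t : List α) : IsOv s t (overlap s t) := by
  rw [isOv_iff]
  refine ⟨Nat.findGreatest_le _, ?_⟩
  exact Nat.findGreatest_spec (P := fun k => s.drop (s.length - k) = t.take k)
    (Nat.zero_le _) (by simp)

lemma IsOv.le_overlap {s t : List α} {k : ℕ} (h : IsOv s t k) : k ≤ overlap s t := by
  rw [isOv_iff] at h
  exact Nat.le_findGreatest h.1 h.2

lemma overlap_le_left (s t : List α) : overlap s t ≤ s.length :=
  (Nat.findGreatest_le _).trans (min_le_left _ _)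

lemma overlap_le_right (s t : List α) : overlap s t ≤ t.length :=
  (Nat.findGreatest_le _).trans (min_le_right _ _)

omit [DecidableEq α] in
lemma core {u v w : List α} (hw : w <+: u) (hv : v <:+ u) (h : u.length ≤ w.length + v.length) :
    ∃ z : List α, z <:+ w ∧ z <+: v ∧ z.length = w.length + v.length - u.length := by
  have hwl := hw.length_le
  have hvl := hv.length_le
  refine ⟨w.drop (u.length - v.length), List.drop_suffix _ _, ?_, ?_⟩
  · have e1 := List.prefix_iff_eq_take.mp hw
    have e2 := List.suffix_iff_eq_drop.mp hv
    have : w.drop (u.length - v.length) = v.take (w.length + v.length - u.length) := by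
      have a1 : w.drop (u.length - v.length) = (u.take w.length).drop (u.length - v.length) :=
        congrArg (List.drop (u.length - v.length)) e1
      have a2 : v.take (w.length + v.length - u.length)
          = (u.drop (u.length - v.length)).take (w.length + v.length - u.length) :=
        congrArg (List.take (w.length + v.length - u.length)) e2
      rw [a1, a2, List.take_drop]
      congr 2
      omega
    rw [this]
    exact List.take_prefix _ _
  · simp only [List.length_drop]; omega

lemma monge (a b c d : List α) (h1 : overlap a d ≤ overlap a b) (h2 : overlap c b ≤ overlap a b) :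
    overlap a d + overlap c b ≤ overlap a b + overlap c d := by
  obtain ⟨u, hua, hub, hul⟩ := overlap_isOv a b
  obtain ⟨v, hva, hvd, hvl⟩ := overlap_isOv a d
  obtain ⟨w, hwc, hwb, hwl⟩ := overlap_isOv c b
  by_cases h : overlap a b ≤ overlap a d + overlap c b
  · have hvu : v <:+ u := List.suffix_of_suffix_length_le hva hua (by omega)
    have hwu : w <+: u := List.prefix_of_prefix_length_le hwb hub (by omega)
    obtain ⟨z, hzw, hzv, hzl⟩ := core hwu hvu (by omega)
    have : IsOv c d z.length := ⟨z, hzw.trans hwc, hzv.trans hvd, rfl⟩
    have := this.le_overlap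
    omega
  · omega

lemma triple (a b c : List α) : overlap a b + overlap b c ≤ b.length + overlap a c := by
  obtain ⟨v, hva, hvb, hvl⟩ := overlap_isOv a b
  obtain ⟨w, hwb, hwc, hwl⟩ := overlap_isOv b c
  by_cases h : b.length ≤ overlap a b + overlap b c
  · obtain ⟨z, hzv, hzw, hzl⟩ := core hvb hwb (by omega)
    have : IsOv a c z.length := ⟨z, hzv.trans hva, hzw.trans hwc, rfl⟩
    have := this.le_overlap
    omega
  · omega

lemma overlap_lt_left {s t : List α} (h : ¬ s <:+: t) : overlap s t < s.length := by
  obtain ⟨v, hvs, hvt, hvl⟩ := overlap_isOv s t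
  rcases Nat.lt_or_ge (overlap s t) s.length with h1 | h1
  · exact h1
  · exfalso
    have : v = s := hvs.eq_of_length (by have := overlap_le_left s t; omega)
    subst this
    exact h hvt.isInfix

lemma overlap_lt_right {s t : List α} (h : ¬ t <:+: s) : overlap s t < t.length := by
  obtain ⟨v, hvs, hvt, hvl⟩ := overlap_isOv s t
  rcases Nat.lt_or_ge (overlap s t) t.length with h1 | h1
  · exact h1
  · exfalso
    have : v = t := hvt.eq_of_length (by have := overlap_le_right s t; omega)
    subst this
    exact h hvs.isInfix

end Vale.Agent.P333
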